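import Vale.Agent.P345.Lin

/-!
P345 (single-fold conjecture).

1. Every set with a Diophantine representation in one unknown has a single-fold Diophantine
   representation, and so has its complement.
2. The same for sets defined by one quantifier, existential or universal, over an arbitrary Boolean
   combination of polynomial inequalities; the least element function has a single-fold graph.
3. The sets `S` such that `S` and its complement have single-fold representations form a Boolean
   algebra.
4. Single-fold sets are closed under substitution of functions with single-fold graphs.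
5. Functions with single-fold graphs are closed under composition.
6. Any number of unknowns: if the unknowns can be bounded by a function with a finite-fold graph
   (for instance a polynomial), then there is a finite-fold representation.
7. Two integer unknowns, linear equation with polynomial coefficients: single-fold, with the
   complement.
8. The greatest common divisor has a single-fold graph.
-/

namespace Vale.Agent.Results.P345.OneUnknown

open _root_.P345

theorem result :
    (∀ (n : ℕ) (P : MvPolynomial (Fin n ⊕ Fin 1) ℤ),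
      SingleFold {a | ∃ x : Fin 1 → ℕ, Sol P a x} ∧
      SingleFold {a | ¬ ∃ x : Fin 1 → ℕ, Sol P a x}) ∧
    (∀ (n k : ℕ) (P : Fin k → MvPolynomial (Fin n ⊕ Fin 1) ℤ) (B : (Fin k → Prop) → Prop),
      SingleFold {a | ∃ x : ℕ, B (fun i => 0 ≤ val (P i) a x)} ∧
      SingleFold {a | ∀ x : ℕ, B (fun i => 0 ≤ val (P i) a x)} ∧
      ∀ F : (Fin n → ℕ) → ℕ, (∀ a, IsLeast {x : ℕ | B (fun i => 0 ≤ val (P i) a x)} (F a) ∨
        ((∀ x : ℕ, ¬ B (fun i => 0 ≤ val (P i) a x)) ∧ F a = 0)) → SingleFold (graph F)) ∧
    (∀ (n : ℕ) (S T : Set (Fin n → ℕ)), SingleFold S → SingleFold Sᶜ → SingleFold T →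
      SingleFold Tᶜ → SingleFold (S ∩ T) ∧ SingleFold (S ∩ T)ᶜ ∧ SingleFold (S ∪ T) ∧
        SingleFold (S ∪ T)ᶜ) ∧
    (∀ (n k : ℕ) (S : Set (Fin k → ℕ)), SingleFold S → ∀ F : Fin k → (Fin n → ℕ) → ℕ,
      (∀ i, SingleFold (graph (F i))) → SingleFold {a | (fun i => F i a) ∈ S}) ∧
    (∀ (n k : ℕ) (G : (Fin k → ℕ) → ℕ), SingleFold (graph G) →
      ∀ F : Fin k → (Fin n → ℕ) → ℕ, (∀ i, SingleFold (graph (F i))) →
        SingleFold (graph fun a => G (fun i => F i a))) ∧
    (∀ (n m : ℕ) (P : MvPolynomial (Fin n ⊕ Fin m) ℤ) (h : (Fin n → ℕ) → ℕ),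
      FiniteFold (graph h) →
        FiniteFold {a | ∃ w : Fin m → ℕ, (∀ j, w j ≤ h a) ∧ Sol P a w}) ∧
    (∀ (n : ℕ) (A B C : MvPolynomial (Fin n) ℤ),
      SingleFold {a | ∃ x y : ℤ, MvPolynomial.eval (fun i => (a i : ℤ)) A * x +
        MvPolynomial.eval (fun i => (a i : ℤ)) B * y =
          MvPolynomial.eval (fun i => (a i : ℤ)) C} ∧
      SingleFold {a | ¬ ∃ x y : ℤ, MvPolynomial.eval (fun i => (a i : ℤ)) A * x +
        MvPolynomial.eval (fun i => (a i : ℤ)) B * y =
          MvPolynomial.eval (fun i => (a i : ℤ)) C}) ∧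
    SingleFold (graph fun a : Fin 2 → ℕ => Nat.gcd (a 0) (a 1)) :=
  ⟨fun _ P => one_unknown P, fun _ _ P B => pattern_fin P B,
    fun _ S T h1 h2 h3 h4 => bool_closed S T h1 h2 h3 h4,
    fun _ _ S h F hF => subst_closed S h F hF, fun _ _ G h F hF => comp_closed G h F hF,
    fun _ _ P h hh => bounded_finiteFold P h hh, fun _ A B C => lin_fin A B C, gcd_fin⟩

end Vale.Agent.Results.P345.OneUnknown
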