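import Vale.Agent.P345s.Final

/-!
# P345: single-fold Diophantine representations for iterated search and two linear unknowns
-/

namespace Vale.Agent.Results.P345.SearchClass

open Vale.Agent.P345s

theorem result (n : ℕ) :
    -- graphs of all functions obtained by composition and one-unknown search
    (∀ f : (Fin n → ℕ) → ℕ, Search n f →
      SingleFold {b : Fin (n + 1) → ℕ | b (Fin.last n) = f (fun i => b i.castSucc)}) ∧
    -- comparisons and linear equations in two unknowns with coefficients in the class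
    (∀ f g h : (Fin n → ℕ) → ℕ, Search n f → Search n g → Search n h →
      SingleFold {a | f a = g a} ∧ SingleFold {a | f a ≠ g a} ∧ SingleFold {a | f a < g a} ∧
      SingleFold {a | ∃ x y : ℕ, f a * x + g a * y = h a} ∧
      SingleFold {a | ¬ ∃ x y : ℕ, f a * x + g a * y = h a} ∧
      SingleFold {a | ∃ x y : ℕ, f a * x = g a * y + h a} ∧
      SingleFold {a | ¬ ∃ x y : ℕ, f a * x = g a * y + h a}) ∧
    -- one existential or one universal quantifier over sign conditions
    (∀ (k r : ℕ) (g : Fin k → (Fin n → ℕ) → ℕ) (P : Fin r → MvPolynomial (Fin k ⊕ Unit) ℤ)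
      (C : Set (Fin r → SignType)), (∀ j, Search n (g j)) →
        SingleFold {a | ∃ x : ℕ, signs P (fun j => g j a) x ∈ C} ∧
          SingleFold {a | ∀ x : ℕ, signs P (fun j => g j a) x ∈ C}) ∧
    -- one unknown
    (∀ P : MvPolynomial (Fin n ⊕ Unit) ℤ,
      SingleFold {a | ∃ x : ℕ, ev P (Sum.elim a (fun _ => x)) = 0} ∧
        SingleFold {a | ¬ ∃ x : ℕ, ev P (Sum.elim a (fun _ => x)) = 0}) ∧
    -- two unknowns which occur linearly
    (∀ α β γ : MvPolynomial (Fin n) ℤ,
      SingleFold {a | ∃ x y : ℕ, ev α a * x + ev β a * y = ev γ a} ∧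
        SingleFold {a | ¬ ∃ x y : ℕ, ev α a * x + ev β a * y = ev γ a}) ∧
    -- Boolean combinations
    (∀ S T : Set (Fin n → ℕ), SingleFold S → SingleFold Sᶜ → SingleFold T → SingleFold Tᶜ →
      SingleFold (S ∩ T) ∧ SingleFold (S ∩ T)ᶜ) :=
  main n

end Vale.Agent.Results.P345.SearchClass
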